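import Mathlib

/-! # Row 271, block U.  Factoriality descends along a local map which is an isomorphism on all `R / 𝔪 ^ n`. -/

set_option autoImplicit false

open IsLocalRing

namespace Crest.Agent.R271.U

variable {R S : Type} [CommRing R] [CommRing S] [IsLocalRing R] [IsLocalRing S]

theorem krull [IsNoetherianRing S] {J : Ideal S} {x : S} (h : ∀ n, x ∈ J ⊔ maximalIdeal S ^ n) : x ∈ J := by
  have h1 := Ideal.iInf_pow_smul_eq_bot_of_isLocalRing (M := S ⧸ J) (maximalIdeal S) (maximalIdeal.isMaximal S).ne_top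
  rw [← Ideal.Quotient.eq_zero_iff_mem, ← Submodule.mem_bot S, ← h1, Submodule.mem_iInf]
  intro n
  obtain ⟨j, hj, m, hm, rfl⟩ := Submodule.mem_sup.1 (h n)
  rw [map_add, Ideal.Quotient.eq_zero_iff_mem.2 hj, zero_add, ← mul_one m, ← smul_eq_mul]
  exact Submodule.smul_mem_smul (n := Ideal.Quotient.mk J 1) hm Submodule.mem_top

/-- the colon ideal `(p : a)` -/
def col (p a : R) : Ideal R where
  carrier := {r | p ∣ r * a}
  add_mem' {x y} h h' := show p ∣ (x + y) * a from add_mul x y a ▸ dvd_add h h'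
  zero_mem' := show p ∣ 0 * a by simp
  smul_mem' c x h := show p ∣ c * x * a from mul_assoc c x a ▸ Dvd.dvd.mul_left h c

/-- `T` induces isomorphisms `R / 𝔪 ^ n → S / 𝔫 ^ n` -/
structure Dns (T : R →+* S) : Prop where
  dense : ∀ s n, ∃ r, s - T r ∈ maximalIdeal S ^ n
  iff : ∀ r n, T r ∈ maximalIdeal S ^ n ↔ r ∈ maximalIdeal R ^ n

variable {T : R →+* S} (h : Dns T)
include h

theorem Dns.sup {J : Ideal R} {n : ℕ} {r : R} (hr : T r ∈ J.map T ⊔ maximalIdeal S ^ n) : r ∈ J ⊔ maximalIdeal R ^ n := by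
  have key : ∀ s ∈ J.map T, ∃ j ∈ J, s - T j ∈ maximalIdeal S ^ n := fun s hs => by
    induction hs using Submodule.span_induction with
    | mem s hs =>
      obtain ⟨j, hj, rfl⟩ := hs
      exact ⟨j, hj, by rw [sub_self]; exact zero_mem _⟩
    | zero => exact ⟨0, zero_mem _, by simp⟩
    | add s s' _ _ h1 h2 =>
      obtain ⟨j, hj, h1⟩ := h1
      obtain ⟨j', hj', h2⟩ := h2
      exact ⟨j + j', add_mem hj hj', by rw [map_add, add_sub_add_comm]; exact add_mem h1 h2⟩
    | smul t s _ h1 =>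
      obtain ⟨j, hj, h1⟩ := h1
      obtain ⟨r, hr⟩ := h.dense t n
      refine ⟨r * j, J.mul_mem_left r hj, ?_⟩
      rw [show t • s - T (r * j) = (t - T r) * s + T r * (s - T j) by rw [map_mul, smul_eq_mul]; ring]
      exact add_mem (Ideal.mul_mem_right _ _ hr) (Ideal.mul_mem_left _ _ h1)
  obtain ⟨s, hs, m, hm, e⟩ := Submodule.mem_sup.1 hr
  obtain ⟨j, hj, h1⟩ := key s hs
  refine Submodule.mem_sup.2 ⟨j, hj, r - j, (h.iff _ n).1 ?_, add_sub_cancel j r⟩
  rw [map_sub, ← e, add_sub_right_comm]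
  exact add_mem h1 hm

variable [IsNoetherianRing R]

theorem Dns.pure {a b : R} (hab : T a ∣ T b) : a ∣ b := by
  refine Ideal.mem_span_singleton.1 (krull fun n => h.sup (Ideal.mem_sup_left ?_))
  rw [Ideal.map_span, Set.image_singleton]
  exact Ideal.mem_span_singleton.2 hab

/-- Artin-Rees: colon ideals extend to colon ideals -/
theorem Dns.colon [IsNoetherianRing S] {p a : R} {s : S} (hs : T p ∣ s * T a) :
    s ∈ Ideal.map T (col p a) := by
  obtain ⟨k, hk⟩ := (maximalIdeal R).exists_pow_inf_eq_pow_smul (M := R) (Ideal.span {p} ⊔ Ideal.span {a})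
  refine krull fun n => ?_
  obtain ⟨r, hr⟩ := h.dense s (n + k)
  have h1 : r * a ∈ Ideal.span {p} ⊔ maximalIdeal R ^ (n + k) := by
    refine h.sup ?_
    rw [show T (r * a) = s * T a - (s - T r) * T a by rw [map_mul]; ring, Ideal.map_span, Set.image_singleton]
    exact sub_mem (Ideal.mem_sup_left (Ideal.mem_span_singleton.2 hs)) (Ideal.mem_sup_right (Ideal.mul_mem_right _ _ hr))
  obtain ⟨u, hu, m, hm, e⟩ := Submodule.mem_sup.1 h1
  have h2 : m ∈ maximalIdeal R ^ n * (Ideal.span {p} ⊔ Ideal.span {a}) := by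
    have h3 := hk (n + k) (Nat.le_add_left k n)
    rw [Nat.add_sub_cancel] at h3
    have h4 : maximalIdeal R ^ (n + k) • ⊤ ⊓ (Ideal.span {p} ⊔ Ideal.span {a}) ≤
        maximalIdeal R ^ n * (Ideal.span {p} ⊔ Ideal.span {a}) := by
      rw [h3, smul_eq_mul]
      exact Ideal.mul_mono_right inf_le_right
    refine h4 (Submodule.mem_inf.2 ⟨?_, ?_⟩)
    · rwa [smul_eq_mul, Ideal.mul_top]
    · rw [eq_sub_of_add_eq' e]
      exact sub_mem (Ideal.mem_sup_right (Ideal.mul_mem_left _ _ (Ideal.mem_span_singleton_self a))) (Ideal.mem_sup_left hu)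
  rw [Ideal.mul_sup] at h2
  obtain ⟨m₁, h3, m', h4, e1⟩ := Submodule.mem_sup.1 h2
  obtain ⟨m₂, h5, e2⟩ := Ideal.mem_mul_span_singleton.1 h4
  have h6 : (r - m₂) * a ∈ Ideal.span {p} := by
    rw [show (r - m₂) * a = u + m₁ by linear_combination -e - e1 - e2]
    obtain ⟨m₃, -, e3⟩ := Ideal.mem_mul_span_singleton.1 h3
    exact add_mem hu (Ideal.mem_span_singleton'.2 ⟨m₃, e3⟩)
  refine Submodule.mem_sup.2 ⟨T (r - m₂), Ideal.mem_map_of_mem T (Ideal.mem_span_singleton.1 h6), T m₂ + (s - T r),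
    add_mem ((h.iff m₂ n).2 h5) (Ideal.pow_le_pow_right (Nat.le_add_right n k) hr), ?_⟩
  rw [map_sub]; ring

theorem Dns.ufd [IsDomain R] [IsDomain S] [IsNoetherianRing S] [UniqueFactorizationMonoid S] :
    UniqueFactorizationMonoid R where
  irreducible_iff_prime {p} := by
    refine ⟨fun hp => ⟨hp.ne_zero, hp.not_isUnit, fun a b hab => or_iff_not_imp_left.2 fun ha => ?_⟩, Prime.irreducible⟩
    have hp0 : T p ≠ 0 := fun h0 => hp.ne_zero (zero_dvd_iff.1 (h.pure (by rw [h0, map_zero])))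
    obtain ⟨g, a', c, h1, h2, h3⟩ := UniqueFactorizationMonoid.exists_reduced_factors (T p) hp0 (T a)
    have hc : c ≠ 0 := left_ne_zero_of_mul (h2 ▸ hp0)
    have hg : g ≠ 0 := right_ne_zero_of_mul (h2 ▸ hp0)
    have h4 : ∀ j, p ∣ j * a → g ∣ T j := fun j hj => by
      have := map_dvd T hj
      rw [map_mul, ← h2, ← h3, mul_left_comm, mul_dvd_mul_iff_left hc] at this
      exact h1.dvd_of_dvd_mul_right this
    obtain ⟨j, hj, h5⟩ : ∃ j, p ∣ j * a ∧ T j ∣ g := by
      by_contra! hn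
      have h6 : Ideal.map T (col p a) ≤ maximalIdeal S * Ideal.span {g} := by
        refine Ideal.map_le_iff_le_comap.2 fun j hj => ?_
        have hj' : p ∣ j * a := hj
        obtain ⟨t, ht⟩ := h4 j hj'
        refine Ideal.mem_mul_span_singleton.2 ⟨t, fun hu => hn j hj' ?_, by rw [ht, mul_comm]⟩
        rw [ht, hu.mul_right_dvd]
      obtain ⟨t, ht, e⟩ := Ideal.mem_mul_span_singleton.1
        (h6 (h.colon (s := g) ⟨a', by rw [← h2, ← h3]; ring⟩))
      rw [mul_eq_right₀ hg] at e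
      exact (e ▸ ht : (1 : S) ∈ maximalIdeal S) isUnit_one
    obtain ⟨q, rfl⟩ := h.pure (h5.trans (h4 p (dvd_mul_right p a)))
    rcases hp.isUnit_or_isUnit rfl with hu | hu
    · exact absurd (hu.dvd_mul_left.1 hj) ha
    · exact hu.mul_right_dvd.2 (h.pure (h5.trans (h4 b (mul_comm a b ▸ hab))))

end Crest.Agent.R271.U
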