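import Mathlib

/-! # Row 271, block U.  Power series in finitely many variables over an infinite field are factorial. -/

set_option autoImplicit false

open IsLocalRing MvPowerSeries

namespace Crest.Agent.R271.U

section Ideal
variable {n : ℕ} {W : Type} [CommRing W]

theorem ps_decomp (f : MvPowerSeries (Fin n) W) (h0 : coeff 0 f = 0) : ∃ g : Fin n → MvPowerSeries (Fin n) W,
    f = ∑ i, X i * g i ∧ ∀ i ν, coeff ν (g i) = 0 ∨ coeff ν (g i) = coeff (ν + .single i 1) f := by
  classical
  have hp : ∀ μ : Fin n →₀ ℕ, ∃ p : Fin n → Prop, μ ≠ 0 → ∃ i, μ i ≠ 0 ∧ ∀ j, p j ↔ j = i := by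
    intro μ
    by_cases h : μ = 0
    · exact ⟨fun _ => True, fun h' => absurd h h'⟩
    · obtain ⟨i, hi⟩ := Finsupp.ne_iff.1 h
      exact ⟨fun j => j = i, fun _ => ⟨i, hi, fun _ => Iff.rfl⟩⟩
  choose p hp using hp
  let g : Fin n → MvPowerSeries (Fin n) W := fun i ν =>
    if p (ν + .single i 1) i then coeff (ν + .single i 1) f else 0
  have hg : ∀ i ν, coeff ν (g i) =
      if p (ν + .single i 1) i then coeff (ν + .single i 1) f else 0 := fun _ _ => rfl
  refine ⟨g, MvPowerSeries.ext fun μ => ?_, fun i ν => ?_⟩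
  · have hc : ∀ i, coeff μ (X i * g i) = if μ i ≠ 0 ∧ p μ i then coeff μ f else 0 := fun i => by
      rw [X_def, coeff_monomial_mul, one_mul, hg]
      by_cases h : Finsupp.single i 1 ≤ μ
      · have h1 : μ i ≠ 0 := Nat.one_le_iff_ne_zero.1 (Finsupp.single_le_iff.1 h)
        rw [if_pos h, tsub_add_cancel_of_le h]
        simp only [h1, ne_eq, not_false_eq_true, true_and]
      · rw [if_neg h, if_neg]
        exact fun h1 => h (Finsupp.single_le_iff.2 (Nat.one_le_iff_ne_zero.2 h1.1))
    rw [map_sum]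
    simp only [hc]
    rcases eq_or_ne μ 0 with rfl | h
    · simpa using h0
    · obtain ⟨i, h1, h2⟩ := hp μ h
      rw [Finset.sum_eq_single i, if_pos ⟨h1, (h2 i).2 rfl⟩]
      · exact fun j _ hj => if_neg fun h3 => hj ((h2 j).1 h3.2)
      · exact fun h3 => absurd (Finset.mem_univ i) h3
  · rw [hg]
    split_ifs
    · exact Or.inr rfl
    · exact Or.inl rfl

theorem mem_span_X_pow {N : ℕ} {f : MvPowerSeries (Fin n) W} (hf : ∀ μ : Fin n →₀ ℕ, μ.degree < N → coeff μ f = 0) :
    f ∈ (Ideal.span (Set.range X) : Ideal (MvPowerSeries (Fin n) W)) ^ N := by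
  induction N generalizing f with
  | zero => simp
  | succ N ih =>
    obtain ⟨g, h1, h2⟩ := ps_decomp f (hf 0 (by simp))
    rw [h1, pow_succ']
    refine Ideal.sum_mem _ fun i _ => Ideal.mul_mem_mul (Ideal.subset_span ⟨i, rfl⟩) (ih fun ν hν => ?_)
    rcases h2 i ν with h3 | h3
    · exact h3
    · rw [h3]
      refine hf _ ?_
      rw [map_add, Finsupp.degree_single]
      omega

end Ideal

variable {K : Type} [Field K] {n : ℕ}

theorem mem_max_iff {f : MvPowerSeries (Fin n) K} : f ∈ maximalIdeal (MvPowerSeries (Fin n) K) ↔ constantCoeff f = 0 := by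
  rw [mem_maximalIdeal, mem_nonunits_iff, isUnit_iff_constantCoeff, isUnit_iff_ne_zero, not_not]

theorem max_eq : maximalIdeal (MvPowerSeries (Fin n) K) = Ideal.span (Set.range X) := by
  refine le_antisymm (fun f hf => ?_) (Ideal.span_le.2 ?_)
  · rw [← pow_one (Ideal.span _)]
    refine mem_span_X_pow fun μ hμ => ?_
    rw [(Finsupp.degree_eq_zero_iff μ).1 (by omega), coeff_zero_eq_constantCoeff_apply, mem_max_iff.1 hf]
  · rintro _ ⟨i, rfl⟩
    exact mem_max_iff.2 (constantCoeff_X i)

theorem mem_max_pow_iff {N : ℕ} {f : MvPowerSeries (Fin n) K} :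
    f ∈ maximalIdeal (MvPowerSeries (Fin n) K) ^ N ↔ (N : ℕ∞) ≤ f.order := by
  refine ⟨fun h => ?_, fun h => max_eq (K := K) (n := n) ▸ mem_span_X_pow fun μ hμ =>
    coeff_of_lt_order (lt_of_lt_of_le (by exact_mod_cast hμ) h)⟩
  induction N generalizing f with
  | zero => simp
  | succ N ih =>
    rw [pow_succ] at h
    refine Submodule.mul_induction_on h (fun a ha b hb => ?_) fun a b ha hb => ?_
    · refine le_trans ?_ le_order_mul
      rw [Nat.cast_succ]
      exact add_le_add (ih ha) (one_le_order_iff_constCoeff_eq_zero.2 (mem_max_iff.1 hb))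
    · exact (le_min ha hb).trans min_order_le_add

/-- a prime factor of `F` stays prime when `B / F = S / F` -/
theorem prime_map {B S : Type} [CommRing B] [CommRing S] (φ : B →+* S) {F q : B}
    (hs : ∀ s, ∃ b, φ F ∣ s - φ b) (hi : ∀ b, φ F ∣ φ b → F ∣ b) (hq : Prime q) (hqF : q ∣ F) (h0 : φ q ≠ 0)
    (hu : ¬ IsUnit (φ q)) : Prime (φ q) := by
  refine ⟨h0, hu, fun a b ⟨c, hc⟩ => ?_⟩
  obtain ⟨a', ha⟩ := hs a
  obtain ⟨b', hb⟩ := hs b
  obtain ⟨c', hc'⟩ := hs c
  have h1 : φ F ∣ φ (a' * b' - q * c') := by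
    have : φ (a' * b' - q * c') = φ q * (c - φ c') - (a - φ a') * b - φ a' * (b - φ b') := by
      rw [map_sub, map_mul, map_mul]
      linear_combination hc
    rw [this]
    exact ((hc'.mul_left _).sub (ha.mul_right _)).sub (hb.mul_left _)
  have h2 : q ∣ a' * b' := by
    have := (hqF.trans (hi _ h1)).add (dvd_mul_right q c')
    rwa [sub_add_cancel] at this
  have h3 := map_dvd φ hqF
  rcases hq.dvd_or_dvd h2 with h | h
  · exact Or.inl (by simpa using (h3.trans ha).add (map_dvd φ h))
  · exact Or.inr (by simpa using (h3.trans hb).add (map_dvd φ h))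

/-- Weierstrass preparation: a prime ideal containing a regular series contains a prime element -/
theorem exists_prime_of_regular {A : Type} [CommRing A] [IsDomain A] [IsLocalRing A] [IsAdicComplete (maximalIdeal A) A]
    [UniqueFactorizationMonoid A] {P : Ideal (PowerSeries A)} (hP : P.IsPrime) {g : PowerSeries A} (hg : g ∈ P)
    (h0 : g.map (residue A) ≠ 0) : ∃ x ∈ P, Prime x := by
  obtain ⟨F, u, H⟩ := PowerSeries.exists_isWeierstrassFactorization h0
  let φ : Polynomial A →+* PowerSeries A := Polynomial.coeToPowerSeries.ringHom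
  have hF : φ F ∈ P := (hP.mem_or_mem (H.eq_mul ▸ hg)).resolve_right fun h =>
    hP.ne_top (Ideal.eq_top_of_isUnit_mem _ h H.isUnit)
  obtain ⟨s, hs, hsF⟩ := UniqueFactorizationMonoid.exists_prime_factors F H.isDistinguishedAt.monic.ne_zero
  have hP' : (P.comap φ).IsPrime := Ideal.IsPrime.comap φ
  obtain ⟨q, hq, hqP⟩ := (hP'.multiset_prod_mem_iff_exists_mem s).1
    (Ideal.mem_of_dvd _ hsF.symm.dvd (Ideal.mem_comap.2 hF))
  let e := H.isDistinguishedAt.algEquivQuotient
  have he : ∀ b, e (Ideal.Quotient.mk _ b) = Ideal.Quotient.mk _ (φ b) := fun b => rfl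
  refine ⟨φ q, hqP, prime_map φ (F := F) (fun x => ?_) (fun b hb => ?_) (hs q hq)
    ((Multiset.dvd_prod hq).trans hsF.dvd) (fun h => (hs q hq).ne_zero (Polynomial.coe_injective _ (h.trans (map_zero φ).symm)))
    fun h => hP.ne_top (Ideal.eq_top_of_isUnit_mem _ hqP h)⟩
  · obtain ⟨y, hy⟩ := e.surjective (Ideal.Quotient.mk _ x)
    obtain ⟨b, rfl⟩ := Ideal.Quotient.mk_surjective y
    exact ⟨b, Ideal.mem_span_singleton.1 (Ideal.Quotient.eq.1 (hy.symm.trans (he b)))⟩
  · refine Ideal.mem_span_singleton.1 (Ideal.Quotient.eq_zero_iff_mem.1 (e.injective ?_))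
    rw [he, map_zero]
    exact Ideal.Quotient.eq_zero_iff_mem.2 (Ideal.mem_span_singleton.2 hb)

/-- the linear substitution `X 0 ↦ c 0 X 0`, `X i ↦ X i + c i X 0` -/
noncomputable def lin (c : Fin (n + 1) → K) : Fin (n + 1) → MvPowerSeries (Fin (n + 1)) K :=
  Fin.cases (C (c 0) * X 0) fun i => X i.succ + C (c i.succ) * X 0

theorem hasSubst_lin (c : Fin (n + 1) → K) : HasSubst (lin c) :=
  hasSubst_of_constantCoeff_zero fun s => by cases s using Fin.cases <;> simp [lin]

theorem lin_inv {c c' : Fin (n + 1) → K} (h0 : c 0 * c' 0 = 1) (h : ∀ i : Fin n, c' i.succ + c i.succ * c' 0 = 0)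
    (f : MvPowerSeries (Fin (n + 1)) K) : substAlgHom (hasSubst_lin c') (substAlgHom (hasSubst_lin c) f) = f := by
  have hC : ∀ r : K, substAlgHom (R := K) (hasSubst_lin c') (C r) = C r := fun r =>
    (substAlgHom (R := K) (hasSubst_lin c')).commutes r
  have key : (fun s => substAlgHom (R := K) (hasSubst_lin c') (lin c s)) = X := by
    funext s
    cases s using Fin.cases with
    | zero =>
      simp only [lin, Fin.cases_zero, map_mul, hC, substAlgHom_X]
      rw [← mul_assoc, ← map_mul, h0, map_one, one_mul]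
    | succ i =>
      simp only [lin, Fin.cases_zero, Fin.cases_succ, map_add, map_mul, hC, substAlgHom_X]
      rw [← mul_assoc, ← map_mul, add_assoc, ← add_mul, ← map_add, h, map_zero, zero_mul, add_zero]
  rw [substAlgHom_comp_substAlgHom_apply, substAlgHom_apply, key, subst_self, id]

theorem coeff_subst_lin (c : Fin (n + 1) → K) (f : MvPowerSeries (Fin (n + 1)) K) (m : ℕ) :
    constantCoeff (PowerSeries.coeff m (finSuccEquiv K n (subst (lin c) f))) =
      MvPolynomial.eval c (∑ d ∈ (Finsupp.finite_of_degree_eq m).toFinset, MvPolynomial.monomial d (coeff d f)) := by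
  let τ : MvPowerSeries (Fin (n + 1)) K →+* PowerSeries K :=
    (PowerSeries.map constantCoeff).comp (finSuccEquiv K n).toRingEquiv.toRingHom
  have h1 : ∀ g, coeff (Finsupp.cons m 0) g = PowerSeries.coeff m (τ g) := fun g => by
    rw [← coeff_coeff_finSuccEquiv, coeff_zero_eq_constantCoeff_apply]; rfl
  have h2 : ∀ s, τ (lin c s) = PowerSeries.C (c s) * PowerSeries.X := fun s => by
    cases s using Fin.cases <;> simp [τ, lin]
  have h3 : ∀ d : Fin (n + 1) →₀ ℕ, coeff (Finsupp.cons m 0) (d.prod fun s e => lin c s ^ e) =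
      if d.degree = m then d.prod fun s e => c s ^ e else 0 := fun d => by
    rw [h1, map_finsuppProd]
    simp only [map_pow, h2, mul_pow, Finsupp.prod_mul]
    rw [show (d.prod fun s e => PowerSeries.C (c s) ^ e) = PowerSeries.C (d.prod fun s e => c s ^ e) by
      simp only [map_finsuppProd, map_pow], PowerSeries.coeff_C_mul,
      show (d.prod fun _ e => (PowerSeries.X : PowerSeries K) ^ e) = PowerSeries.X ^ d.degree from
        Finset.prod_pow_eq_pow_sum _ _ _, PowerSeries.coeff_X_pow, mul_ite, mul_one, mul_zero]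
    exact if_congr eq_comm rfl rfl
  rw [← coeff_zero_eq_constantCoeff_apply, coeff_coeff_finSuccEquiv, coeff_subst (hasSubst_lin c), map_sum,
    finsum_eq_sum_of_support_subset (s := (Finsupp.finite_of_degree_eq m).toFinset)]
  · refine Finset.sum_congr rfl fun d hd => ?_
    have hd' : d.degree = m := (Finsupp.finite_of_degree_eq m).mem_toFinset.1 hd
    rw [h3, if_pos hd', MvPolynomial.eval_monomial, smul_eq_mul]
  · intro d hd
    rw [Set.Finite.coe_toFinset]
    by_contra hne
    have hd' : ¬ d.degree = m := hne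
    exact hd (by simp only [h3, if_neg hd', smul_zero])

theorem exists_regular [Infinite K] {f : MvPowerSeries (Fin (n + 1)) K} (hf : f ≠ 0) :
    ∃ e : MvPowerSeries (Fin (n + 1)) K ≃+* PowerSeries (MvPowerSeries (Fin n) K), (e f).map (residue _) ≠ 0 := by
  classical
  obtain ⟨d, hd⟩ : ∃ d, coeff d f ≠ 0 := by
    by_contra! h
    exact hf (MvPowerSeries.ext h)
  set p : MvPolynomial (Fin (n + 1)) K :=
    ∑ d' ∈ (Finsupp.finite_of_degree_eq d.degree).toFinset, MvPolynomial.monomial d' (coeff d' f) with hp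
  have hp0 : p ≠ 0 := fun h => hd (by
    have := congrArg (MvPolynomial.coeff d) hp
    rw [h, MvPolynomial.coeff_sum, Finset.sum_eq_single d (fun b _ hb => by rw [MvPolynomial.coeff_monomial, if_neg hb])
      (fun h => absurd ((Finsupp.finite_of_degree_eq d.degree).mem_toFinset.2 rfl) h), MvPolynomial.coeff_monomial,
      if_pos rfl] at this
    exact this.symm)
  obtain ⟨c, hc⟩ : ∃ c, MvPolynomial.eval c (p * MvPolynomial.X 0) ≠ 0 := by
    by_contra! h
    exact mul_ne_zero hp0 (MvPolynomial.X_ne_zero 0) (MvPolynomial.funext (by simpa using h))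
  rw [map_mul, MvPolynomial.eval_X] at hc
  have c0 := right_ne_zero_of_mul hc
  let c' : Fin (n + 1) → K := Fin.cases (c 0)⁻¹ fun i => -(c i.succ * (c 0)⁻¹)
  let e := AlgEquiv.ofAlgHom (substAlgHom (R := K) (hasSubst_lin c)) (substAlgHom (R := K) (hasSubst_lin c'))
    (AlgHom.ext (lin_inv (by simp [c', c0]) fun i => by simp [c', c0]))
    (AlgHom.ext (lin_inv (by simp [c', c0]) fun i => by simp [c']))
  refine ⟨(e.trans (finSuccEquiv K n)).toRingEquiv, fun h => left_ne_zero_of_mul hc ?_⟩
  have := congrArg (PowerSeries.coeff d.degree) h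
  rw [PowerSeries.coeff_map, map_zero, residue_eq_zero_iff, mem_max_iff] at this
  rw [hp, ← coeff_subst_lin, ← substAlgHom_apply (hasSubst_lin c)]
  exact this

theorem ufd_ps (K : Type) [Field K] [Infinite K] (n : ℕ) : UniqueFactorizationMonoid (MvPowerSeries (Fin n) K) := by
  induction n with
  | zero => exact (isEmptyEquiv (Fin 0) K).toMulEquiv.symm.uniqueFactorizationMonoid inferInstance
  | succ n ih =>
    have := NoZeroDivisors.to_isDomain (MvPowerSeries (Fin n) K)
    have := NoZeroDivisors.to_isDomain (MvPowerSeries (Fin (n + 1)) K)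
    refine UniqueFactorizationMonoid.iff_exists_prime_mem_of_isPrime.2 fun P hP0 hP => ?_
    obtain ⟨f, hf, hf0⟩ := (Submodule.ne_bot_iff P).1 hP0
    obtain ⟨e, he⟩ := exists_regular hf0
    have : IsAdicComplete (maximalIdeal (MvPowerSeries (Fin n) K)) (MvPowerSeries (Fin n) K) := by
      rw [max_eq]; infer_instance
    obtain ⟨x, hx, hx'⟩ := exists_prime_of_regular (P := P.comap e.symm) (Ideal.IsPrime.comap _)
      (Ideal.mem_comap.2 (by rwa [e.symm_apply_apply])) he
    exact ⟨e.symm x, hx, (MulEquiv.prime_iff e.symm).2 hx'⟩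

end Crest.Agent.R271.U
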