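import Crest.Agent.R271.Defs
import Crest.Agent.R271.U.PS
import Crest.Agent.R271.U.Desc

/-! # Row 271, block U.  Smooth local rings are factorial. See `Crest/Agent/R271/Blueprint.lean`, section U. -/

set_option autoImplicit false

open IsLocalRing

namespace Crest.Agent.R271

namespace U

theorem exists_point {D : Type} [CommRing D] [Algebra ℂ D] [Algebra.FiniteType ℂ D] (𝔪 : Ideal D) [𝔪.IsMaximal] :
    ∃ y : D →ₐ[ℂ] ℂ, ∀ g, y g = 0 ↔ g ∈ 𝔪 := by
  let := Ideal.Quotient.field 𝔪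
  have := finite_of_finite_type_of_isJacobsonRing ℂ (D ⧸ 𝔪)
  let e := AlgEquiv.ofBijective (Algebra.ofId ℂ (D ⧸ 𝔪)) IsAlgClosed.algebraMap_bijective_of_isIntegral
  refine ⟨e.symm.toAlgHom.comp (Ideal.Quotient.mkₐ ℂ 𝔪), fun g => ?_⟩
  rw [← Ideal.Quotient.eq_zero_iff_mem]
  exact e.symm.map_eq_zero_iff

end U

open U in
theorem stUFD (hA : StTay) : StUFD := by
  intro d D _ _ _ ζ hζ 𝔪 _
  have : Algebra.FiniteType ℂ D := by
    have h1 : (MvPolynomial.aeval ζ : MvPolynomial (Fin d) ℂ →ₐ[ℂ] D).toRingHom.FiniteType :=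
      .of_finitePresentation (RingHom.Etale.iff_flat_and_formallyUnramified.1 hζ).2.2
    have h2 := h1.comp (RingHom.finiteType_algebraMap.2 (inferInstance : Algebra.FiniteType ℂ (MvPolynomial (Fin d) ℂ)))
    rwa [AlgHom.toRingHom_eq_coe, AlgHom.comp_algebraMap, RingHom.finiteType_algebraMap] at h2
  have := Algebra.FiniteType.isNoetherianRing ℂ D
  obtain ⟨y, hy⟩ := exists_point 𝔪
  obtain ⟨T, -, h1, h2, h3⟩ := hA d D ζ hζ y
  have hu : ∀ s : 𝔪.primeCompl, IsUnit ((T : D →+* MvPowerSeries (Fin d) ℂ) s) := fun s => by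
    rw [MvPowerSeries.isUnit_iff_constantCoeff, isUnit_iff_ne_zero]
    exact fun h => s.2 ((hy s).1 ((h2 s).symm.trans h))
  let T' : Localization.AtPrime 𝔪 →+* MvPowerSeries (Fin d) ℂ := IsLocalization.lift hu
  have hT : ∀ g, T' (algebraMap D _ g) = T g := IsLocalization.lift_eq hu
  have : IsDomain (MvPowerSeries (Fin d) ℂ) := NoZeroDivisors.to_isDomain _
  have := ufd_ps ℂ d
  refine Dns.ufd (T := T') ⟨fun s n => ?_, fun r n => ⟨fun hr => ?_, fun hr => ?_⟩⟩
  · refine ⟨algebraMap D _ (MvPolynomial.aeval (fun i => ζ i - algebraMap ℂ D (y (ζ i))) (s.truncTotal n)), ?_⟩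
    have h4 : T.comp (MvPolynomial.aeval fun i => ζ i - algebraMap ℂ D (y (ζ i))) =
        MvPolynomial.coeToMvPowerSeries.algHom ℂ := by
      refine MvPolynomial.algHom_ext fun i => ?_
      simp [h1, MvPowerSeries.algebraMap_apply]
    rw [hT, ← AlgHom.comp_apply, h4, max_eq]
    refine mem_span_X_pow fun μ hμ => ?_
    simp [MvPowerSeries.coeff_truncTotal _ hμ]
  · obtain ⟨g, s, rfl⟩ := IsLocalization.exists_mk'_eq 𝔪.primeCompl r
    have h4 := Ideal.mul_mem_right (T' (algebraMap D _ (s : D))) _ hr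
    rw [← map_mul, IsLocalization.mk'_spec, hT] at h4
    obtain ⟨h, h5, h6⟩ := h3 g n (mem_max_pow_iff.1 h4)
    have h7 : h * g ∈ 𝔪 ^ n := Ideal.pow_right_mono (Ideal.span_le.2 (by
      rintro _ ⟨i, rfl⟩
      exact (hy _).1 (by simp))) n h6
    have h8 := Ideal.mem_map_of_mem (algebraMap D (Localization.AtPrime 𝔪)) h7
    rw [Ideal.map_pow, Localization.AtPrime.map_eq_maximalIdeal, map_mul,
      Ideal.unit_mul_mem_iff_mem _ (IsLocalization.map_units _ (⟨h, fun h9 => h5 ((hy h).2 h9)⟩ : 𝔪.primeCompl))] at h8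
    rw [IsLocalization.mk'_eq_mul_mk'_one]
    exact Ideal.mul_mem_right _ _ h8
  · have h4 := Ideal.mem_map_of_mem T' hr
    rw [Ideal.map_pow] at h4
    refine Ideal.pow_right_mono ?_ n h4
    rw [← Localization.AtPrime.map_eq_maximalIdeal, Ideal.map_map, Ideal.map_le_iff_le_comap]
    intro g hg
    rw [Ideal.mem_comap, RingHom.comp_apply, hT, mem_max_iff, h2]
    exact (hy g).2 hg

end Crest.Agent.R271
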